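import Vale.Agent.P032.H180.Wind

/-!
# P032: a cocycle on the disc forces the frozen pattern on the unit circle
-/

open Set Filter Topology

noncomputable section

namespace Vale.Agent.P032.H180

/-- rotation by 60 degrees -/
def om : ℂ := Complex.exp ((Real.pi / 3 : ℝ) * Complex.I)

theorem pt_add_one (v : ℂ) (t : ℝ) : pt v (t + 1) = v + om * (pt v t - v) := by
  unfold pt om
  rw [add_sub_cancel_left, ← Complex.exp_add]
  congr 2
  push_cast; ring

theorem om_sub_one : ‖om - 1‖ = 1 := by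
  have h : om = (1 / 2 : ℝ) + (Real.sqrt 3 / 2 : ℝ) * Complex.I := by
    unfold om
    rw [Complex.exp_mul_I, ← Complex.ofReal_cos, ← Complex.ofReal_sin, Real.cos_pi_div_three,
      Real.sin_pi_div_three]
  have h2 : om - 1 = ((-1 / 2 : ℝ) : ℂ) + (Real.sqrt 3 / 2 : ℝ) * Complex.I := by
    rw [h]; push_cast; ring
  rw [h2, Complex.norm_add_mul_I]
  have : (-1 / 2 : ℝ) ^ 2 + (Real.sqrt 3 / 2) ^ 2 = 1 := by
    rw [div_pow, div_pow, Real.sq_sqrt (by norm_num)]; norm_num
  rw [this, Real.sqrt_one]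

theorem dist_rot (v y : ℂ) (hy : dist y v = 1) : dist y (v + om * (y - v)) = 1 := by
  rw [dist_comm, dist_eq_norm]
  have : v + om * (y - v) - y = (om - 1) * (y - v) := by ring
  rw [this, norm_mul, om_sub_one, one_mul, ← dist_eq_norm, hy]

theorem dist_rot' (v y : ℂ) (hy : dist y v = 1) : dist (v + om * (y - v)) v = 1 := by
  rw [dist_eq_norm, add_sub_cancel_left, norm_mul, ← dist_eq_norm, hy, mul_one]
  unfold om
  exact Complex.norm_exp_ofReal_mul_I _

theorem exists_pt {v y : ℂ} (hy : dist y v = 1) : ∃ t ∈ Icc (0 : ℝ) 6, y = pt v t := by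
  have hpi := Real.pi_pos
  have hn : ‖y - v‖ = 1 := by rw [← dist_eq_norm]; exact hy
  have h1 : y - v = Complex.exp ((Complex.arg (y - v) : ℝ) * Complex.I) := by
    have := Complex.norm_mul_exp_arg_mul_I (y - v)
    rw [hn, Complex.ofReal_one, one_mul] at this
    exact this.symm
  have h2 : y = pt v (3 * Complex.arg (y - v) / Real.pi) := by
    unfold pt
    have : 3 * Complex.arg (y - v) / Real.pi * Real.pi / 3 = Complex.arg (y - v) := by
      field_simp
    rw [this, ← h1]; ring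
  have a1 := Complex.neg_pi_lt_arg (y - v)
  have a2 := Complex.arg_le_pi (y - v)
  set θ := Complex.arg (y - v)
  have b1 : -3 ≤ 3 * θ / Real.pi := by rw [le_div_iff₀ hpi]; linarith
  have b2 : 3 * θ / Real.pi ≤ 3 := by rw [div_le_iff₀ hpi]; linarith
  by_cases h0 : 0 ≤ 3 * θ / Real.pi
  · exact ⟨_, ⟨h0, by linarith⟩, h2⟩
  · push Not at h0
    exact ⟨3 * θ / Real.pi + 6, ⟨by linarith, by linarith⟩, by rw [pt_six]; exact h2⟩

variable {ι : Type*}

/-- the three colours `col` on the circle form a hexagon pattern -/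
theorem hex_of {v : ℂ} {K : ℂ → Set ι} {col : Fin 3 → ι}
    (hu : ∀ y, dist y v = 1 → ∀ᶠ z in 𝓝[Metric.sphere v 1] y, ∀ l, col l ∈ K z → col l ∈ K y)
    (hne : ∀ y, dist y v = 1 → ∃ l, col l ∈ K y)
    (hnu : ∀ y, dist y v = 1 → ∃ l, col l ∉ K y)
    (hinc : ∀ y z, dist y v = 1 → dist z v = 1 → dist y z = 1 →
      ¬ ∀ l, col l ∈ K y → col l ∈ K z) :
    Hex fun t => {l | col l ∈ K (pt v t)} := by
  have hd : ∀ t, dist (pt v t) (pt v (t + 1)) = 1 := fun t => by
    rw [pt_add_one]; exact dist_rot _ _ (dist_pt v t)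
  refine ⟨fun t => by simp only [pt_six], fun t => hne _ (dist_pt v t),
    fun t => hnu _ (dist_pt v t), fun t => ?_, fun t hs => ?_, fun t hs => ?_⟩
  · have h1 : Tendsto (pt v) (𝓝 t) (𝓝[Metric.sphere v 1] (pt v t)) :=
      tendsto_nhdsWithin_of_tendsto_nhds_of_eventually_within _ (continuous_pt v).continuousAt
        (Eventually.of_forall fun s => by rw [Metric.mem_sphere]; exact dist_pt v s)
    filter_upwards [h1.eventually (hu _ (dist_pt v t))] with s hs l hl
    exact hs l hl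
  · exact hinc _ _ (dist_pt v t) (dist_pt v (t + 1)) (hd t) fun l hl => hs hl
  · exact hinc _ _ (dist_pt v (t + 1)) (dist_pt v t) (by rw [dist_comm]; exact hd t)
      fun l hl => hs hl

/-- **A cocycle on the disc which is `1` on the pair `col 0, col 1` and `0` on the two other pairs
of the three colours seen by the boundary circle forces the frozen pattern.** -/
theorem frozen_of_tor {v : ℂ} {K : ℂ → Set ι} {φ : ℂ → ι → ι → ZMod 2}
    (hT : Tor (Metric.closedBall v 1) K φ) {col : Fin 3 → ι}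
    (hne : ∀ y, dist y v = 1 → ∃ l, col l ∈ K y)
    (hnu : ∀ y, dist y v = 1 → ∃ l, col l ∉ K y)
    (hinc : ∀ y z, dist y v = 1 → dist z v = 1 → dist y z = 1 →
      ¬ ∀ l, col l ∈ K y → col l ∈ K z)
    (hφ : ∀ y, dist y v = 1 → ∀ i j, col i ∈ K y → col j ∈ K y →
      φ y (col i) (col j) = f2 i j) :
    ∃ s : Fin 3, (s = 1 ∨ s = 2) ∧ ∀ y, dist y v = 1 → ∀ l,
      (col l ∈ K y ↔ col (l + s) ∈ K (v + om * (y - v))) := by
  have hB : ∀ t, pt v t ∈ Metric.closedBall v 1 := fun t => by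
    rw [Metric.mem_closedBall]; exact (dist_pt v t).le
  have hS : Metric.sphere v 1 ⊆ Metric.closedBall v 1 := Metric.sphere_subset_closedBall
  have hH : Hex fun t => {l | col l ∈ K (pt v t)} := by
    refine hex_of (fun y hy => ?_) hne hnu hinc
    have hyB : y ∈ Metric.closedBall v 1 := by rw [Metric.mem_closedBall]; exact hy.le
    filter_upwards [nhdsWithin_mono y hS (hT.loc y hyB)] with z hz l hl
    exact hz.1 hl
  obtain ⟨g, hg, hg6⟩ := circle hT
  have hsec : Sec (Icc (0 : ℝ) 6) (fun t => {l | col l ∈ K (pt v t)}) (fun _ => f2)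
      fun t l => g t (col l) := by
    refine ⟨fun t ht i hi j hj => ?_, fun t ht => ?_⟩
    · rw [← hφ _ (dist_pt v t) i j hi hj]
      exact hg.diff t ht _ hi _ hj
    · filter_upwards [hg.loc t ht] with s hs i hi
      exact hs _ hi
  rcases hH.frozen hsec (fun i hi => hg6 _ hi) with h | h
  · refine ⟨1, Or.inl rfl, fun y hy l => ?_⟩
    obtain ⟨t, ht, rfl⟩ := exists_pt hy
    rw [← pt_add_one]
    exact h t ht l
  · refine ⟨2, Or.inr rfl, fun y hy l => ?_⟩
    obtain ⟨t, ht, rfl⟩ := exists_pt hy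
    rw [← pt_add_one]
    exact h t ht l

end Vale.Agent.P032.H180
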