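import Vale.Agent.P032.H180.Disc

/-!
# P032: the ring form

If the three colours `col` on the unit circle of `v` do not form the frozen pattern, then on every
fine ring of the circle, with labels, the number of steps `col 0 | col 1` is odd.
-/

open Set Filter Topology

noncomputable section

namespace Vale.Agent.P032.H180

/-- the frozen rotation law -/
def Frz {ι : Type*} (v : ℂ) (K : ℂ → Set ι) (col : Fin 3 → ι) : Prop :=
  ∃ s : Fin 3, (s = 1 ∨ s = 2) ∧ ∀ y, dist y v = 1 → ∀ l,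
      (col l ∈ K y ↔ col (l + s) ∈ K (v + om * (y - v)))

variable {ι : Type*}

theorem ring_odd_of {v : ℂ} {K : ℂ → Set ι} {col : Fin 3 → ι}
    (hu : ∀ y, dist y v = 1 → ∀ᶠ z in 𝓝[Metric.sphere v 1] y, ∀ l, col l ∈ K z → col l ∈ K y)
    (hne : ∀ y, dist y v = 1 → ∃ l, col l ∈ K y)
    (hnu : ∀ y, dist y v = 1 → ∃ l, col l ∉ K y)
    (hinc : ∀ y z, dist y v = 1 → dist z v = 1 → dist y z = 1 →
      ¬ ∀ l, col l ∈ K y → col l ∈ K z)
    (hnf : ¬ Frz v K col) :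
    ∃ δ > 0, ∀ (n : ℕ) (s : ℕ → ℝ) (lab : ℕ → Fin 3), (∀ k ≤ n, s k ∈ Icc (0 : ℝ) 6) → s 0 = 0 →
      s n = 6 → (∀ k < n, |s k - s (k + 1)| < δ) → (∀ k ≤ n, col (lab k) ∈ K (pt v (s k))) →
      lab n = lab 0 → ∑ k ∈ Finset.range n, f2 (lab k) (lab (k + 1)) = 1 := by
  refine (hex_of hu hne hnu hinc).ring_odd fun h => hnf ?_
  rcases h with h | h
  · refine ⟨1, Or.inl rfl, fun y hy l => ?_⟩
    obtain ⟨t, ht, rfl⟩ := exists_pt hy
    rw [← pt_add_one]
    exact h t ht l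
  · refine ⟨2, Or.inr rfl, fun y hy l => ?_⟩
    obtain ⟨t, ht, rfl⟩ := exists_pt hy
    rw [← pt_add_one]
    exact h t ht l

/-- The polar ring `v + exp (2 π i k / n)`. -/
theorem polar_odd {v : ℂ} {K : ℂ → Set ι} {col : Fin 3 → ι}
    (hu : ∀ y, dist y v = 1 → ∀ᶠ z in 𝓝[Metric.sphere v 1] y, ∀ l, col l ∈ K z → col l ∈ K y)
    (hne : ∀ y, dist y v = 1 → ∃ l, col l ∈ K y)
    (hnu : ∀ y, dist y v = 1 → ∃ l, col l ∉ K y)
    (hinc : ∀ y z, dist y v = 1 → dist z v = 1 → dist y z = 1 →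
      ¬ ∀ l, col l ∈ K y → col l ∈ K z)
    (hnf : ¬ Frz v K col) :
    ∃ N : ℕ, ∀ n : ℕ, N ≤ n → ∀ lab : ℕ → Fin 3,
      (∀ k ≤ n, col (lab k) ∈ K (v + Complex.exp ((2 * Real.pi * k / n : ℝ) * Complex.I))) →
      lab n = lab 0 → ∑ k ∈ Finset.range n, f2 (lab k) (lab (k + 1)) = 1 := by
  obtain ⟨δ, hδ, h⟩ := ring_odd_of hu hne hnu hinc hnf
  obtain ⟨N, hN⟩ := exists_nat_gt (6 / δ)
  refine ⟨N + 1, fun n hn lab hlab hper => ?_⟩
  have hn0 : (0 : ℝ) < n := by
    have : 0 < n := by omega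
    exact_mod_cast this
  have hnN : (N : ℝ) ≤ n := by
    have : N ≤ n := by omega
    exact_mod_cast this
  refine h n (fun k => 6 * k / n) lab (fun k hk => ?_) (by simp) (by field_simp) (fun k _ => ?_)
    (fun k hk => ?_) hper
  · have hk' : (k : ℝ) ≤ n := by exact_mod_cast hk
    constructor
    · positivity
    · rw [div_le_iff₀ hn0]
      linarith
  · have : (6 : ℝ) * k / n - 6 * ((k + 1 : ℕ) : ℝ) / n = -(6 / n) := by
      push_cast; field_simp; ring
    rw [this, abs_neg, abs_of_pos (by positivity), div_lt_iff₀ hn0]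
    have h6 : 6 < N * δ := by
      rw [div_lt_iff₀ hδ] at hN
      exact hN
    nlinarith
  · have := hlab k hk
    unfold pt
    convert this using 5
    ring_nf

end Vale.Agent.P032.H180
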