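import Mathlib

/-!
# P032: torsors over a square, an interval, a disc are trivial

`Tor B K φ` : on `B`, every point `x` carries a set `K x` of labels and differences `φ x i j`
(`i, j ∈ K x`) with values in an abelian group, satisfying the cocycle rule and locally constant.
`Sec B K φ g` : `g` is a primitive, locally constant on `B`.
-/

open Set Filter Topology

noncomputable section

namespace Vale.Agent.P032.H180

variable {X Y ι G : Type*} [TopologicalSpace X] [TopologicalSpace Y] [AddCommGroup G]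

/-- differences of labels -/
structure Tor (B : Set X) (K : X → Set ι) (φ : X → ι → ι → G) : Prop where
  ne : ∀ x ∈ B, (K x).Nonempty
  coc : ∀ x ∈ B, ∀ i ∈ K x, ∀ j ∈ K x, ∀ l ∈ K x, φ x i j + φ x j l = φ x i l
  loc : ∀ x ∈ B, ∀ᶠ y in 𝓝[B] x, K y ⊆ K x ∧ ∀ i ∈ K y, ∀ j ∈ K y, φ y i j = φ x i j

/-- a primitive -/
structure Sec (B : Set X) (K : X → Set ι) (φ : X → ι → ι → G) (g : X → ι → G) : Prop where
  diff : ∀ x ∈ B, ∀ i ∈ K x, ∀ j ∈ K x, φ x i j = g x j - g x i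
  loc : ∀ x ∈ B, ∀ᶠ y in 𝓝[B] x, ∀ i ∈ K y, g y i = g x i

variable {B B' S S' : Set X} {K : X → Set ι} {φ : X → ι → ι → G} {g g' : X → ι → G}

theorem Tor.mono (h : Tor B K φ) (hS : S ⊆ B) : Tor S K φ :=
  ⟨fun x hx => h.ne x (hS hx), fun x hx => h.coc x (hS hx),
    fun x hx => nhdsWithin_mono x hS (h.loc x (hS hx))⟩

theorem Sec.mono (h : Sec B K φ g) (hS : S ⊆ B) : Sec S K φ g :=
  ⟨fun x hx => h.diff x (hS hx), fun x hx => nhdsWithin_mono x hS (h.loc x (hS hx))⟩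

theorem Sec.add (h : Sec B K φ g) (c : G) : Sec B K φ fun x i => g x i + c :=
  ⟨fun x hx i hi j hj => by rw [h.diff x hx i hi j hj]; abel, fun x hx => by
    filter_upwards [h.loc x hx] with y hy i hi
    rw [hy i hi]⟩

/-- pull back along a continuous map -/
theorem Tor.comp (h : Tor B K φ) {C : Set Y} {p : Y → X} (hp : ContinuousOn p C)
    (hC : ∀ y ∈ C, p y ∈ B) : Tor C (fun y => K (p y)) fun y => φ (p y) := by
  refine ⟨fun x hx => h.ne _ (hC x hx), fun x hx => h.coc _ (hC x hx), fun x hx => ?_⟩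
  have h1 : Tendsto p (𝓝[C] x) (𝓝[B] (p x)) :=
    tendsto_nhdsWithin_of_tendsto_nhds_of_eventually_within _ (hp x hx)
      (eventually_nhdsWithin_of_forall hC)
  exact h1.eventually (h.loc _ (hC x hx))

theorem Sec.comp (h : Sec B K φ g) {C : Set Y} {p : Y → X} (hp : ContinuousOn p C)
    (hC : ∀ y ∈ C, p y ∈ B) : Sec C (fun y => K (p y)) (fun y => φ (p y)) fun y => g (p y) := by
  refine ⟨fun x hx => h.diff _ (hC x hx), fun x hx => ?_⟩
  have h1 : Tendsto p (𝓝[C] x) (𝓝[B] (p x)) :=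
    tendsto_nhdsWithin_of_tendsto_nhds_of_eventually_within _ (hp x hx)
      (eventually_nhdsWithin_of_forall hC)
  exact h1.eventually (h.loc _ (hC x hx))

/-- two primitives on a preconnected set differ by a constant -/
theorem Sec.unique (hT : Tor S K φ) (hS : IsPreconnected S) (h : Sec S K φ g)
    (h' : Sec S K φ g') : ∃ c, ∀ x ∈ S, ∀ i ∈ K x, g x i = g' x i + c := by
  classical
  rcases S.eq_empty_or_nonempty with rfl | ⟨x₀, hx₀⟩
  · exact ⟨0, fun x hx => absurd hx (notMem_empty x)⟩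
  let _ : TopologicalSpace G := ⊥
  have : DiscreteTopology G := ⟨rfl⟩
  set d : X → G := fun x => if hx : (K x).Nonempty then g x hx.some - g' x hx.some else 0 with hd
  have hdi : ∀ x ∈ S, ∀ i ∈ K x, d x = g x i - g' x i := by
    intro x hx i hi
    have hne := hT.ne x hx
    simp only [hd, dif_pos hne]
    have h1 := h.diff x hx _ hne.some_mem i hi
    have h2 := h'.diff x hx _ hne.some_mem i hi
    have h3 : g x i - g x hne.some = g' x i - g' x hne.some := h1.symm.trans h2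
    have h4 : g x i - g' x i = g x hne.some - g' x hne.some := by
      calc g x i - g' x i = (g x i - g x hne.some) + g x hne.some - g' x i := by abel
        _ = g' x i - g' x hne.some + g x hne.some - g' x i := by rw [h3]
        _ = g x hne.some - g' x hne.some := by abel
    exact h4.symm
  have hcont : ContinuousOn d S := by
    intro x hx
    have hev : ∀ᶠ y in 𝓝[S] x, d y = d x := by
      filter_upwards [h.loc x hx, h'.loc x hx, hT.loc x hx, self_mem_nhdsWithin] with y h1 h2 h3 hy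
      obtain ⟨i, hi⟩ := hT.ne y hy
      rw [hdi y hy i hi, hdi x hx i (h3.1 hi), h1 i hi, h2 i hi]
    exact (tendsto_const_nhds (x := d x)).congr' (hev.mono fun y hy => hy.symm)
  refine ⟨d x₀, fun x hx i hi => ?_⟩
  have := hS.constant hcont hx hx₀
  rw [← this, hdi x hx i hi]; abel

/-- gluing along a preconnected intersection -/
theorem glue (hT : Tor B K φ) (hSB : S ⊆ B) (hSB' : S' ⊆ B) (hS : IsClosed S) (hS' : IsClosed S')
    (hI : IsPreconnected (S ∩ S')) (h : Sec S K φ g) (h' : Sec S' K φ g') :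
    ∃ g₁, Sec (S ∪ S') K φ g₁ := by
  classical
  obtain ⟨c, hc⟩ := Sec.unique (hT.mono (inter_subset_left.trans hSB)) hI
    (h.mono inter_subset_left) (h'.mono inter_subset_right)
  have h'' := h'.add c
  refine ⟨fun x i => if x ∈ S then g x i else g' x i + c, ?_, ?_⟩
  · intro x hx i hi j hj
    by_cases hxS : x ∈ S
    · simp only [if_pos hxS]; exact h.diff x hxS i hi j hj
    · simp only [if_neg hxS]; exact h''.diff x (hx.resolve_left hxS) i hi j hj
  · intro x hx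
    rw [nhdsWithin_union, eventually_sup]
    by_cases hxS : x ∈ S
    · simp only [if_pos hxS]
      refine ⟨?_, ?_⟩
      · filter_upwards [h.loc x hxS, self_mem_nhdsWithin] with y hy hyS i hi
        rw [if_pos hyS]; exact hy i hi
      · by_cases hxS' : x ∈ S'
        · have hTl := (hT.mono hSB').loc x hxS'
          filter_upwards [h''.loc x hxS', self_mem_nhdsWithin, hTl] with y hy hyS' hK i hi
          have e1 : g x i = g' x i + c := hc x ⟨hxS, hxS'⟩ i (hK.1 hi)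
          by_cases hyS : y ∈ S
          · rw [if_pos hyS, hc y ⟨hyS, hyS'⟩ i hi, e1]; exact hy i hi
          · rw [if_neg hyS, e1]; exact hy i hi
        · have : ∀ᶠ y in 𝓝[S'] x, False := by
            have h0 : (S')ᶜ ∈ 𝓝 x := hS'.isOpen_compl.mem_nhds hxS'
            filter_upwards [mem_nhdsWithin_of_mem_nhds h0, self_mem_nhdsWithin] with y h1 h2
            exact h1 h2
          exact this.mono fun y hy => hy.elim
    · have hxS' := hx.resolve_left hxS
      simp only [if_neg hxS]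
      have h0 : ∀ᶠ y in 𝓝 x, y ∉ S := hS.isOpen_compl.mem_nhds hxS
      refine ⟨?_, ?_⟩
      · have : ∀ᶠ y in 𝓝[S] x, False := by
          filter_upwards [mem_nhdsWithin_of_mem_nhds h0, self_mem_nhdsWithin] with y h1 h2
          exact h1 h2
        exact this.mono fun y hy => hy.elim
      · filter_upwards [h''.loc x hxS', mem_nhdsWithin_of_mem_nhds h0] with y hy hyS i hi
        have hyS' : y ∉ S := hyS
        rw [if_neg hyS']; exact hy i hi

/-- local primitives -/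
theorem Tor.local (hT : Tor B K φ) {x : X} (hx : x ∈ B) :
    ∃ W, IsOpen W ∧ x ∈ W ∧ ∃ g, Sec (B ∩ W) K φ g := by
  obtain ⟨W, hW, hxW, hWB⟩ := mem_nhdsWithin.1 (hT.loc x hx)
  obtain ⟨i₀, hi₀⟩ := hT.ne x hx
  refine ⟨W, hW, hxW, fun _ i => φ x i₀ i, ?_, ?_⟩
  · intro y hy i hi j hj
    obtain ⟨h1, h2⟩ := hWB ⟨hy.2, hy.1⟩
    rw [h2 i hi j hj, ← hT.coc x hx i₀ hi₀ i (h1 hi) j (h1 hj)]; abel
  · exact fun y _ => Eventually.of_forall fun _ _ _ => rfl


theorem Sec.congr {K' : X → Set ι} {φ' : X → ι → ι → G} (h : Sec B K φ g)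
    (hK : ∀ x ∈ B, K' x = K x) (hφ : ∀ x ∈ B, φ' x = φ x) : Sec B K' φ' g := by
  refine ⟨fun x hx i hi j hj => ?_, fun x hx => ?_⟩
  · rw [hφ x hx]; exact h.diff x hx i (hK x hx ▸ hi) j (hK x hx ▸ hj)
  · filter_upwards [h.loc x hx, self_mem_nhdsWithin] with y hy hyB i hi
    exact hy i (hK y hyB ▸ hi)

/-- **A torsor over the square is trivial.** -/
theorem square {K : ℝ × ℝ → Set ι} {φ : ℝ × ℝ → ι → ι → G}
    (hT : Tor (Icc (0 : ℝ) 1 ×ˢ Icc (0 : ℝ) 1) K φ) :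
    ∃ g, Sec (Icc (0 : ℝ) 1 ×ˢ Icc (0 : ℝ) 1) K φ g := by
  classical
  set B : Set (ℝ × ℝ) := Icc (0 : ℝ) 1 ×ˢ Icc (0 : ℝ) 1 with hB
  choose W hWo hxW hsec using fun b : B => hT.local b.2
  have hc₁ : ∀ b : B, IsOpen {p : unitInterval × unitInterval | ((p.1 : ℝ), (p.2 : ℝ)) ∈ W b} :=
    fun b => (hWo b).preimage (by fun_prop)
  have hc₂ : (univ : Set (unitInterval × unitInterval)) ⊆
      ⋃ b : B, {p : unitInterval × unitInterval | ((p.1 : ℝ), (p.2 : ℝ)) ∈ W b} := by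
    intro p _
    exact mem_iUnion.2 ⟨⟨((p.1 : ℝ), (p.2 : ℝ)), ⟨p.1.2, p.2.2⟩⟩, hxW _⟩
  obtain ⟨t, ht0, htm, ⟨n, hn⟩, hcell⟩ :=
    exists_monotone_Icc_subset_open_cover_unitInterval_prod_self hc₁ hc₂
  set s : ℕ → ℝ := fun k => (t k : ℝ) with hs
  have hs0 : s 0 = 0 := by simp [hs, ht0]
  have hsm : Monotone s := fun a b hab => htm hab
  have hs1 : ∀ k, s k ≤ 1 := fun k => (t k).2.2
  have hsn : ∀ k, 0 ≤ s k := fun k => (t k).2.1
  have hend : s n = 1 := by simp [hs, hn n le_rfl]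
  -- sections on the cells
  have cell : ∀ a m, ∃ g, Sec (Icc (s a) (s (a + 1)) ×ˢ Icc (s m) (s (m + 1))) K φ g := by
    intro a m
    obtain ⟨b, hb⟩ := hcell a m
    obtain ⟨g, hg⟩ := hsec b
    refine ⟨g, hg.mono fun p hp => ⟨⟨⟨(hsn a).trans hp.1.1, hp.1.2.trans (hs1 _)⟩,
      ⟨(hsn m).trans hp.2.1, hp.2.2.trans (hs1 _)⟩⟩, ?_⟩⟩
    have h1 : p.1 ∈ Icc (0 : ℝ) 1 := ⟨(hsn a).trans hp.1.1, hp.1.2.trans (hs1 _)⟩
    have h2 : p.2 ∈ Icc (0 : ℝ) 1 := ⟨(hsn m).trans hp.2.1, hp.2.2.trans (hs1 _)⟩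
    have := hb (show ((⟨p.1, h1⟩ : unitInterval), (⟨p.2, h2⟩ : unitInterval)) ∈
      Icc (t a) (t (a + 1)) ×ˢ Icc (t m) (t (m + 1)) from ⟨⟨hp.1.1, hp.1.2⟩, ⟨hp.2.1, hp.2.2⟩⟩)
    exact this
  have conv : ∀ a b c d a' b' c' d' : ℝ,
      IsPreconnected ((Icc a b ×ˢ Icc c d) ∩ (Icc a' b' ×ˢ Icc c' d') : Set (ℝ × ℝ)) :=
    fun a b c d a' b' c' d' => (((convex_Icc a b).prod (convex_Icc c d)).inter
      ((convex_Icc a' b').prod (convex_Icc c' d'))).isPreconnected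
  have sub : ∀ a b c d : ℝ, 0 ≤ a → b ≤ 1 → 0 ≤ c → d ≤ 1 → Icc a b ×ˢ Icc c d ⊆ B :=
    fun a b c d ha hb hc hd => prod_mono (Icc_subset_Icc ha hb) (Icc_subset_Icc hc hd)
  -- rows
  have row : ∀ m a, ∃ g, Sec (Icc 0 (s a) ×ˢ Icc (s m) (s (m + 1))) K φ g := by
    intro m a
    induction a with
    | zero =>
      obtain ⟨g, hg⟩ := cell 0 m
      exact ⟨g, hg.mono (prod_mono (Icc_subset_Icc hs0.le (hsm (Nat.zero_le 1))) le_rfl)⟩
    | succ a ih =>
      obtain ⟨g, hg⟩ := ih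
      obtain ⟨g', hg'⟩ := cell a m
      obtain ⟨g₁, hg₁⟩ := glue hT (sub _ _ _ _ le_rfl (hs1 _) (hsn _) (hs1 _))
        (sub _ _ _ _ (hsn _) (hs1 _) (hsn _) (hs1 _)) (isClosed_Icc.prod isClosed_Icc)
        (isClosed_Icc.prod isClosed_Icc) (conv _ _ _ _ _ _ _ _) hg hg'
      refine ⟨g₁, hg₁.mono ?_⟩
      rw [← union_prod, Icc_union_Icc_eq_Icc (hsn a) (hsm (Nat.le_succ a))]
  have col : ∀ m, ∃ g, Sec (Icc 0 (s n) ×ˢ Icc 0 (s m)) K φ g := by
    intro m
    induction m with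
    | zero =>
      obtain ⟨g, hg⟩ := row 0 n
      exact ⟨g, hg.mono (prod_mono le_rfl (Icc_subset_Icc hs0.le (hsm (Nat.zero_le 1))))⟩
    | succ m ih =>
      obtain ⟨g, hg⟩ := ih
      obtain ⟨g', hg'⟩ := row m n
      obtain ⟨g₁, hg₁⟩ := glue hT (sub _ _ _ _ le_rfl (hs1 _) le_rfl (hs1 _))
        (sub _ _ _ _ le_rfl (hs1 _) (hsn _) (hs1 _)) (isClosed_Icc.prod isClosed_Icc)
        (isClosed_Icc.prod isClosed_Icc) (conv _ _ _ _ _ _ _ _) hg hg'
      refine ⟨g₁, hg₁.mono ?_⟩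
      rw [← prod_union, Icc_union_Icc_eq_Icc (hsn m) (hsm (Nat.le_succ m))]
  obtain ⟨g, hg⟩ := col n
  exact ⟨g, by rwa [hend] at hg⟩

/-- **A torsor over an interval is trivial.** -/
theorem interval {a b : ℝ} (hab : a < b) {K : ℝ → Set ι} {φ : ℝ → ι → ι → G}
    (hT : Tor (Icc a b) K φ) : ∃ g, Sec (Icc a b) K φ g := by
  have hba : 0 < b - a := sub_pos.2 hab
  obtain ⟨g, hg⟩ := square (K := fun p => K (a + (b - a) * p.1))
    (φ := fun p => φ (a + (b - a) * p.1)) (hT.comp (p := fun p : ℝ × ℝ => a + (b - a) * p.1)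
      (C := Icc (0 : ℝ) 1 ×ˢ Icc (0 : ℝ) 1) (by fun_prop) fun p hp => by
        obtain ⟨⟨h1, h2⟩, -⟩ := hp
        constructor
        · nlinarith
        · nlinarith)
  have h := hg.comp (C := Icc a b) (p := fun x : ℝ => ((x - a) / (b - a), (0 : ℝ)))
    (by fun_prop) fun x hx => ⟨⟨div_nonneg (sub_nonneg.2 hx.1) hba.le,
      (div_le_one hba).2 (by linarith [hx.2])⟩, ⟨le_rfl, zero_le_one⟩⟩
  have e : ∀ x, a + (b - a) * ((x - a) / (b - a)) = x := by
    intro x; field_simp; ring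
  refine ⟨_, h.congr (fun x _ => ?_) fun x _ => ?_⟩
  · simp only [e]
  · simp only [e]

/-- the point of the unit circle about `v` with angle `60 t` degrees -/
def pt (v : ℂ) (t : ℝ) : ℂ := v + Complex.exp ((t * Real.pi / 3 : ℝ) * Complex.I)

theorem continuous_pt (v : ℂ) : Continuous (pt v) := by unfold pt; fun_prop

theorem pt_six (v : ℂ) (t : ℝ) : pt v (t + 6) = pt v t := by
  unfold pt
  have : (((t + 6) * Real.pi / 3 : ℝ) : ℂ) * Complex.I =
      ((t * Real.pi / 3 : ℝ) : ℂ) * Complex.I + 2 * Real.pi * Complex.I := by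
    push_cast; ring
  rw [this, Complex.exp_periodic]

theorem dist_pt (v : ℂ) (t : ℝ) : dist (pt v t) v = 1 := by
  unfold pt
  rw [dist_eq_norm, add_sub_cancel_left, Complex.norm_exp_ofReal_mul_I]

/-- **A torsor over the disc is trivial**, on the boundary circle. -/
theorem circle {v : ℂ} {K : ℂ → Set ι} {φ : ℂ → ι → ι → G}
    (hT : Tor (Metric.closedBall v 1) K φ) :
    ∃ g, Sec (Icc (0 : ℝ) 6) (fun t => K (pt v t)) (fun t => φ (pt v t)) g ∧
      ∀ i ∈ K (pt v 0), g 6 i = g 0 i := by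
  set P : ℝ × ℝ → ℂ := fun p => v + p.1 * Complex.exp ((6 * p.2 * Real.pi / 3 : ℝ) * Complex.I)
    with hP
  have hPc : Continuous P := by rw [hP]; fun_prop
  have hPB : ∀ p ∈ Icc (0 : ℝ) 1 ×ˢ Icc (0 : ℝ) 1, P p ∈ Metric.closedBall v 1 := by
    rintro p ⟨⟨h1, h2⟩, -⟩
    rw [Metric.mem_closedBall, dist_eq_norm, hP]
    simp only [add_sub_cancel_left]
    rw [norm_mul, Complex.norm_exp_ofReal_mul_I, mul_one, Complex.norm_real, Real.norm_eq_abs,
      abs_of_nonneg h1]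
    exact h2
  have hTP := hT.comp (C := Icc (0 : ℝ) 1 ×ˢ Icc (0 : ℝ) 1) hPc.continuousOn hPB
  obtain ⟨g, hg⟩ := square hTP
  have hv : v ∈ Metric.closedBall v 1 := Metric.mem_closedBall_self zero_le_one
  -- the boundary
  have hP1 : ∀ t, P (1, t / 6) = pt v t := by
    intro t
    have : 6 * (t / 6) * Real.pi / 3 = t * Real.pi / 3 := by ring
    simp only [hP, pt, this, Complex.ofReal_one, one_mul]
  have hP0 : ∀ t, P (0, t) = v := by intro t; simp [hP]
  have hPe : ∀ r, P (r, 1) = P (r, 0) := by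
    intro r
    have e1 : (((6 * (1 : ℝ) * Real.pi / 3 : ℝ)) : ℂ) * Complex.I =
        ((6 * (0 : ℝ) * Real.pi / 3 : ℝ) : ℂ) * Complex.I + 2 * Real.pi * Complex.I := by
      push_cast; ring
    simp only [hP]
    rw [e1, Complex.exp_periodic]
  have hb := hg.comp (C := Icc (0 : ℝ) 6) (p := fun t : ℝ => ((1 : ℝ), t / 6)) (by fun_prop)
    fun t ht => ⟨⟨zero_le_one, le_rfl⟩, ⟨by linarith [ht.1], by linarith [ht.2]⟩⟩
  refine ⟨fun t => g (1, t / 6), hb.congr (fun t _ => ?_) (fun t _ => ?_), ?_⟩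
  · simp only [hP1]
  · simp only [hP1]
  -- closing up
  have h0 := hg.comp (C := Icc (0 : ℝ) 1) (p := fun r : ℝ => (r, (0 : ℝ))) (by fun_prop)
    fun r hr => ⟨hr, ⟨le_rfl, zero_le_one⟩⟩
  have h1 := hg.comp (C := Icc (0 : ℝ) 1) (p := fun r : ℝ => (r, (1 : ℝ))) (by fun_prop)
    fun r hr => ⟨hr, ⟨zero_le_one, le_rfl⟩⟩
  have h1' := h1.congr (K' := fun r => K (P (r, 0))) (φ' := fun r => φ (P (r, 0)))
    (fun r _ => by simp only [hPe]) (fun r _ => by simp only [hPe])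
  have hT0 : Tor (Icc (0 : ℝ) 1) (fun r => K (P (r, 0))) (fun r => φ (P (r, 0))) :=
    hT.comp (p := fun r : ℝ => P (r, 0)) (by fun_prop) fun r hr => hPB _ ⟨hr, ⟨le_rfl, zero_le_one⟩⟩
  obtain ⟨c, hc⟩ := Sec.unique hT0 isPreconnected_Icc h1' h0
  -- the centre
  have hcen := hg.comp (C := Icc (0 : ℝ) 1) (p := fun r : ℝ => ((0 : ℝ), r)) (by fun_prop)
    fun r hr => ⟨⟨le_rfl, zero_le_one⟩, hr⟩
  have hcen' := hcen.congr (K' := fun _ => K v) (φ' := fun _ => φ v)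
    (fun r _ => by simp only [hP0]) (fun r _ => by simp only [hP0])
  have hTc : Tor (Icc (0 : ℝ) 1) (fun _ => K v) (fun _ => φ v) :=
    ⟨fun _ _ => hT.ne v hv, fun _ _ => hT.coc v hv,
      fun _ _ => Eventually.of_forall fun _ => ⟨le_rfl, fun _ _ _ _ => rfl⟩⟩
  have hcst : Sec (Icc (0 : ℝ) 1) (fun _ => K v) (fun _ => φ v) (fun _ => g (0, 0)) :=
    ⟨fun _ _ => hcen'.diff 0 ⟨le_rfl, zero_le_one⟩,
      fun _ _ => Eventually.of_forall fun _ _ _ => rfl⟩
  obtain ⟨c', hc'⟩ := Sec.unique hTc isPreconnected_Icc hcen' hcst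
  obtain ⟨i₀, hi₀⟩ := hT.ne v hv
  have e0 := hc' 0 ⟨le_rfl, zero_le_one⟩ i₀ hi₀
  have e1 := hc' 1 ⟨zero_le_one, le_rfl⟩ i₀ hi₀
  have hc'0 : c' = 0 := by simpa using e0
  have hc0 : c = 0 := by
    have := hc 0 ⟨le_rfl, zero_le_one⟩ i₀ (by simpa only [hP0] using hi₀)
    rw [hc'0, add_zero] at e1
    have h2 : g (0, 1) i₀ = g (0, 0) i₀ + c := this
    have h3 : g (0, 1) i₀ = g (0, 0) i₀ := e1
    rw [h3] at h2
    simpa using h2
  intro i hi
  have hi' : i ∈ K (P (1, 0)) := by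
    have := hP1 0
    rw [zero_div] at this
    rw [this]; exact hi
  have := hc 1 ⟨zero_le_one, le_rfl⟩ i hi'
  rw [hc0, add_zero] at this
  show g (1, 6 / 6) i = g (1, 0 / 6) i
  rw [zero_div, div_self (by norm_num : (6 : ℝ) ≠ 0)]
  exact this

end Vale.Agent.P032.H180
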