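import Vale.Agent.P032.H180.Tor

/-!
# P032: the hexagon count

Three closed sets on the circle `ℝ / 6`, covering, without common point, with `Q t`, `Q (t + 1)`
incomparable. If the mod 2 class (1 on the pair `{0,1}`, 0 on the other pairs) is trivial on the
circle, then `Q (t + 1) = Q t + 1` for all `t` or `Q (t + 1) = Q t - 1` for all `t`.
-/

open Set Filter Topology

noncomputable section

namespace Vale.Agent.P032.H180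

/-- signed difference of two of three cyclic labels -/
def dz (i j : Fin 3) : ℤ := if i = j then 0 else if j = i + 1 then 1 else -1

theorem dz_coc (i j l : Fin 3) (h : ¬ (i ≠ j ∧ j ≠ l ∧ i ≠ l)) : dz i j + dz j l = dz i l := by
  revert i j l; unfold dz; decide

theorem dz_cast (i j : Fin 3) : ((dz i j : ℤ) : ZMod 3) = ((j : ℕ) : ZMod 3) - ((i : ℕ) : ZMod 3) := by
  revert i j; unfold dz; decide

theorem abs_dz (i j : Fin 3) : |dz i j| ≤ 1 := by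
  revert i j; unfold dz; decide

/-- the mod 2 data -/
def f2 (i j : Fin 3) : ZMod 2 := if (i = 0 ∧ j = 1) ∨ (i = 1 ∧ j = 0) then 1 else 0

/-- data on the circle -/
structure Hex (Q : ℝ → Set (Fin 3)) : Prop where
  per : ∀ t, Q (t + 6) = Q t
  ne : ∀ t, (Q t).Nonempty
  nu : ∀ t, ∃ i, i ∉ Q t
  usc : ∀ t, ∀ᶠ s in 𝓝 t, Q s ⊆ Q t
  inc : ∀ t, ¬ Q t ⊆ Q (t + 1)
  inc' : ∀ t, ¬ Q (t + 1) ⊆ Q t

variable {Q : ℝ → Set (Fin 3)}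

theorem Hex.not_distinct (h : Hex Q) {t : ℝ} {i j l : Fin 3} (hi : i ∈ Q t) (hj : j ∈ Q t)
    (hl : l ∈ Q t) : ¬ (i ≠ j ∧ j ≠ l ∧ i ≠ l) := by
  rintro ⟨h1, h2, h3⟩
  obtain ⟨m, hm⟩ := h.nu t
  have : m = i ∨ m = j ∨ m = l := by
    revert h1 h2 h3; revert i j l m; intro i j l; fin_cases i <;> fin_cases j <;> fin_cases l <;>
      simp <;> intro _ _ _ m <;> fin_cases m <;> simp
  rcases this with rfl | rfl | rfl <;> exact hm ‹_›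

theorem Hex.tor (h : Hex Q) {G : Type*} [AddCommGroup G] (f : Fin 3 → Fin 3 → G)
    (hf : ∀ i j l, ¬ (i ≠ j ∧ j ≠ l ∧ i ≠ l) → f i j + f j l = f i l) (B : Set ℝ) :
    Tor B Q fun _ => f :=
  ⟨fun t _ => h.ne t, fun _ _ _ hi _ hj _ hl => hf _ _ _ (h.not_distinct hi hj hl),
    fun t _ => mem_nhdsWithin_of_mem_nhds ((h.usc t).mono fun _ hs => ⟨hs, fun _ _ _ _ => rfl⟩)⟩

theorem Hex.pair (h : Hex Q) (t : ℝ) : ∃ i j, i ∈ Q t ∧ j ∈ Q t ∧ ∀ l ∈ Q t, l = i ∨ l = j := by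
  obtain ⟨i, hi⟩ := h.ne t
  by_cases hex : ∃ j ∈ Q t, j ≠ i
  · obtain ⟨j, hj, hji⟩ := hex
    refine ⟨i, j, hi, hj, fun l hl => ?_⟩
    by_contra hcon
    push Not at hcon
    exact h.not_distinct hi hj hl ⟨hji.symm, hcon.2.symm, hcon.1.symm⟩
  · push Not at hex
    exact ⟨i, i, hi, hi, fun l hl => Or.inl (hex l hl)⟩

/-- the integer lift -/
theorem Hex.lift (h : Hex Q) : ∃ ℓ : ℝ → Fin 3 → ℤ,
    Sec (Icc (0 : ℝ) 12) Q (fun _ => dz) ℓ ∧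
      ∀ t ∈ Icc (0 : ℝ) 12, ∀ i ∈ Q t, (3 : ℤ) ∣ ℓ t i - (i : ℕ) := by
  obtain ⟨ℓ, hℓ⟩ := interval (by norm_num) (h.tor dz dz_coc (Icc (0 : ℝ) 12))
  have h3 : Sec (Icc (0 : ℝ) 12) Q (fun _ i j => ((dz i j : ℤ) : ZMod 3))
      fun t i => (ℓ t i : ZMod 3) := by
    refine ⟨fun t ht i hi j hj => ?_, fun t ht => ?_⟩
    · rw [hℓ.diff t ht i hi j hj]; push_cast; rfl
    · filter_upwards [hℓ.loc t ht] with s hs i hi
      rw [hs i hi]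
  have h3' : Sec (Icc (0 : ℝ) 12) Q (fun _ i j => ((dz i j : ℤ) : ZMod 3))
      fun _ i => ((i : ℕ) : ZMod 3) :=
    ⟨fun _ _ i _ j _ => dz_cast i j, fun _ _ => Eventually.of_forall fun _ _ _ => rfl⟩
  have ht3 : Tor (Icc (0 : ℝ) 12) Q (fun _ i j => ((dz i j : ℤ) : ZMod 3)) :=
    h.tor _ (fun i j l hijl => by rw [← dz_coc i j l hijl]; push_cast; rfl) _
  obtain ⟨c, hc⟩ := Sec.unique ht3 isPreconnected_Icc h3 h3'
  refine ⟨fun t i => ℓ t i + (-(c.val : ℤ)), hℓ.add _, fun t ht i hi => ?_⟩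
  have h1 := hc t ht i hi
  have h2 : ((ℓ t i + (-(c.val : ℤ)) - ((i : ℕ) : ℤ) : ℤ) : ZMod 3) = 0 := by
    push_cast
    rw [h1, ZMod.natCast_zmod_val]
    ring
  exact_mod_cast (ZMod.intCast_zmod_eq_zero_iff_dvd _ 3).1 h2

/-- residues mod 6 of the double mean and membership -/
theorem mem_iff_mod {i j : Fin 3} {a b : ℤ} (ha : (3 : ℤ) ∣ a - (i : ℕ)) (hb : b - a = dz i j)
    (l : Fin 3) : (l = i ∨ l = j) ↔
      ((a + b - 2 * (l : ℕ)) % 6 = 0 ∨ (a + b - 2 * (l : ℕ)) % 6 = 1 ∨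
        (a + b - 2 * (l : ℕ)) % 6 = 5) := by
  obtain ⟨k, hk⟩ := ha
  have hb' : b = a + dz i j := by linarith
  subst hb'
  have ha' : a = 3 * k + (i : ℕ) := by linarith
  subst ha'
  clear hk
  fin_cases i <;> fin_cases j <;> fin_cases l <;> simp [dz] <;> omega

/-- incomparable sets of residues -/
theorem incomparable_mod {m n : ℤ}
    (h1 : ∃ l : Fin 3, ((m - 2 * (l : ℕ)) % 6 = 0 ∨ (m - 2 * (l : ℕ)) % 6 = 1 ∨
        (m - 2 * (l : ℕ)) % 6 = 5) ∧ ¬ ((n - 2 * (l : ℕ)) % 6 = 0 ∨ (n - 2 * (l : ℕ)) % 6 = 1 ∨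
        (n - 2 * (l : ℕ)) % 6 = 5))
    (h2 : ∃ l : Fin 3, ((n - 2 * (l : ℕ)) % 6 = 0 ∨ (n - 2 * (l : ℕ)) % 6 = 1 ∨
        (n - 2 * (l : ℕ)) % 6 = 5) ∧ ¬ ((m - 2 * (l : ℕ)) % 6 = 0 ∨ (m - 2 * (l : ℕ)) % 6 = 1 ∨
        (m - 2 * (l : ℕ)) % 6 = 5)) :
    (n - m) % 6 = 2 ∨ (n - m) % 6 = 3 ∨ (n - m) % 6 = 4 := by
  obtain ⟨l, hl, hl'⟩ := h1
  obtain ⟨l₂, hl₂, hl₂'⟩ := h2
  fin_cases l <;> fin_cases l₂ <;> simp at hl hl' hl₂ hl₂' <;> omega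

/-- the residue condition -/
def Res (x : ℤ) : Prop := x % 6 = 0 ∨ x % 6 = 1 ∨ x % 6 = 5

theorem eq_mod_of_res {m n : ℤ} (h : ∀ l : Fin 3, Res (m - 2 * (l : ℕ)) ↔ Res (n - 2 * (l : ℕ))) :
    (n - m) % 6 = 0 := by
  have h0 := h 0
  have h1 := h 1
  have h2 := h 2
  simp [Res] at h0 h1 h2
  omega

/-- a locally constant function on an interval -/
theorem const_of_loc {a b : ℝ} {f : ℝ → ℤ}
    (hf : ∀ t ∈ Icc a b, ∀ᶠ s in 𝓝[Icc a b] t, f s = f t) :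
    ∀ s ∈ Icc a b, ∀ t ∈ Icc a b, f s = f t := by
  intro s hs t ht
  have hc : ContinuousOn f (Icc a b) := fun x hx =>
    (tendsto_const_nhds (x := f x)).congr' ((hf x hx).mono fun y hy => hy.symm)
  exact isPreconnected_Icc.constant hc hs ht

theorem Hex.exM (h : Hex Q) : ∃ (ℓ : ℝ → Fin 3 → ℤ) (M : ℝ → ℤ),
    Sec (Icc (0 : ℝ) 12) Q (fun _ => dz) ℓ ∧
      (∀ t ∈ Icc (0 : ℝ) 12, ∀ i ∈ Q t, (3 : ℤ) ∣ ℓ t i - (i : ℕ)) ∧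
      (∀ t ∈ Icc (0 : ℝ) 12, ∀ l : Fin 3, l ∈ Q t ↔ Res (M t - 2 * (l : ℕ))) ∧
      (∀ t ∈ Icc (0 : ℝ) 12, ∀ᶠ s in 𝓝[Icc (0 : ℝ) 12] t, |M s - M t| ≤ 1) ∧
      ∀ t ∈ Icc (0 : ℝ) 12, ∀ i ∈ Q t, |M t - 2 * ℓ t i| ≤ 1 := by
  obtain ⟨ℓ, hℓ, hd⟩ := h.lift
  choose I J hI hJ hIJ using h.pair
  refine ⟨ℓ, fun t => ℓ t (I t) + ℓ t (J t), hℓ, hd, fun t ht l => ?_, fun t ht => ?_,
    fun t ht i hi => ?_⟩
  · have h1 := mem_iff_mod (hd t ht _ (hI t)) (hℓ.diff t ht _ (hI t) _ (hJ t)).symm l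
    unfold Res
    rw [← h1]
    exact ⟨hIJ t l, fun h2 => by rcases h2 with rfl | rfl; exacts [hI t, hJ t]⟩
  · filter_upwards [hℓ.loc t ht, mem_nhdsWithin_of_mem_nhds (h.usc t), self_mem_nhdsWithin]
      with s hs hK hsB
    have e1 := hs _ (hI s)
    have e2 := hs _ (hJ s)
    have e3 := hℓ.diff t ht _ (hI t) _ (hJ t)
    have e4 := abs_dz (I t) (J t)
    have hKs : Q s ⊆ Q t := hK
    rw [e1, e2]
    rw [abs_le] at e4 ⊢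
    rcases hIJ t _ (hKs (hI s)) with a | a <;> rcases hIJ t _ (hKs (hJ s)) with b | b <;>
      rw [a, b] <;> constructor <;> linarith [e4.1, e4.2]
  · have e3 := hℓ.diff t ht _ (hI t) _ (hJ t)
    have e4 := abs_dz (I t) (J t)
    rw [abs_le] at e4 ⊢
    rcases hIJ t i hi with rfl | rfl <;> constructor <;> simp only <;> linarith [e4.1, e4.2]

theorem tendsto_add_Icc {a b a' b' c t : ℝ} (h : ∀ s ∈ Icc a b, s + c ∈ Icc a' b') :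
    Tendsto (fun s => s + c) (𝓝[Icc a b] t) (𝓝[Icc a' b'] (t + c)) :=
  tendsto_nhdsWithin_of_tendsto_nhds_of_eventually_within _
    ((continuous_add_const c).continuousAt.mono_left nhdsWithin_le_nhds)
    (eventually_nhdsWithin_of_forall h)

theorem f2_eq (i j : Fin 3) :
    (((((i : ℕ) : ℤ) + dz i j + 2) / 3 - (((i : ℕ) : ℤ) + 2) / 3 : ℤ) : ZMod 2) = f2 i j := by
  revert i j; unfold dz f2; decide

theorem f2_lift {i j : Fin 3} {a b : ℤ} (ha : (3 : ℤ) ∣ a - (i : ℕ)) (hb : b - a = dz i j) :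
    f2 i j = (((b + 2) / 3 : ℤ) : ZMod 2) - (((a + 2) / 3 : ℤ) : ZMod 2) := by
  obtain ⟨k, hk⟩ := ha
  have e1 : (a + 2) / 3 = k + (((i : ℕ) : ℤ) + 2) / 3 := by omega
  have e2 : (b + 2) / 3 = k + (((i : ℕ) : ℤ) + dz i j + 2) / 3 := by omega
  rw [← f2_eq, e1, e2]
  push_cast
  ring

theorem res_shift {m n N l l' c : ℤ} (h : n - m = 6 * N + 2 * c) (hl : l' % 3 = (l + c) % 3) :
    Res (m - 2 * l) ↔ Res (n - 2 * l') := by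
  have e : (n - 2 * l') % 6 = (m - 2 * l) % 6 := by omega
  unfold Res
  rw [e]

theorem tele_int {N m0 m1 m2 m3 m4 m5 m6 : ℤ}
    (r0 : m1 - m0 = 6 * N + 2 ∨ m1 - m0 = 6 * N + 3 ∨ m1 - m0 = 6 * N + 4)
    (r1 : m2 - m1 = 6 * N + 2 ∨ m2 - m1 = 6 * N + 3 ∨ m2 - m1 = 6 * N + 4)
    (r2 : m3 - m2 = 6 * N + 2 ∨ m3 - m2 = 6 * N + 3 ∨ m3 - m2 = 6 * N + 4)
    (r3 : m4 - m3 = 6 * N + 2 ∨ m4 - m3 = 6 * N + 3 ∨ m4 - m3 = 6 * N + 4)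
    (r4 : m5 - m4 = 6 * N + 2 ∨ m5 - m4 = 6 * N + 3 ∨ m5 - m4 = 6 * N + 4)
    (r5 : m6 - m5 = 6 * N + 2 ∨ m6 - m5 = 6 * N + 3 ∨ m6 - m5 = 6 * N + 4)
    (h : (m6 - m0) % 12 = 0) :
    (m1 - m0 = 6 * N + 2 ∧ m6 - m0 = 36 * N + 12) ∨
      (m1 - m0 = 6 * N + 4 ∧ m6 - m0 = 36 * N + 24) := by
  have b : ∀ {x y : ℤ}, (y - x = 6 * N + 2 ∨ y - x = 6 * N + 3 ∨ y - x = 6 * N + 4) →
      6 * N + 2 ≤ y - x ∧ y - x ≤ 6 * N + 4 := by intro x y h; omega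
  have b0 := b r0
  have b1 := b r1
  have b2 := b r2
  have b3 := b r3
  have b4 := b r4
  have b5 := b r5
  have e : m6 - m0 = 36 * N + 12 ∨ m6 - m0 = 36 * N + 24 := by omega
  rcases e with e | e
  · left; constructor <;> omega
  · right; constructor <;> omega

/-- **The hexagon count.** Frozen, or the winding number is odd. -/
theorem Hex.dich (h : Hex Q) : ∃ ℓ : ℝ → Fin 3 → ℤ, Sec (Icc (0 : ℝ) 12) Q (fun _ => dz) ℓ ∧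
    (∀ t ∈ Icc (0 : ℝ) 12, ∀ i ∈ Q t, (3 : ℤ) ∣ ℓ t i - (i : ℕ)) ∧
    (((∀ t ∈ Icc (0 : ℝ) 6, ∀ l, l ∈ Q t ↔ l + 1 ∈ Q (t + 1)) ∨
      ∀ t ∈ Icc (0 : ℝ) 6, ∀ l, l ∈ Q t ↔ l + 2 ∈ Q (t + 1)) ∨
      ∀ i ∈ Q 0, ((ℓ 6 i + 2) / 3 - (ℓ 0 i + 2) / 3) % 2 = 1) := by
  obtain ⟨ℓ, M, hℓ, hd, hM, hMloc, hMℓ⟩ := h.exM
  refine ⟨ℓ, hℓ, hd, ?_⟩
  -- steps
  have hE : ∀ t ∈ Icc (0 : ℝ) 11, (M (t + 1) - M t) % 6 = 2 ∨ (M (t + 1) - M t) % 6 = 3 ∨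
      (M (t + 1) - M t) % 6 = 4 := by
    intro t ht
    have ht0 : t ∈ Icc (0 : ℝ) 12 := ⟨ht.1, by linarith [ht.2]⟩
    have ht1 : t + 1 ∈ Icc (0 : ℝ) 12 := ⟨by linarith [ht.1], by linarith [ht.2]⟩
    apply incomparable_mod
    · have := h.inc t
      rw [Set.not_subset] at this
      obtain ⟨l, hl, hl'⟩ := this
      exact ⟨l, (hM t ht0 l).1 hl, fun hc => hl' ((hM _ ht1 l).2 hc)⟩
    · have := h.inc' t
      rw [Set.not_subset] at this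
      obtain ⟨l, hl, hl'⟩ := this
      exact ⟨l, (hM _ ht1 l).1 hl, fun hc => hl' ((hM _ ht0 l).2 hc)⟩
  have hEloc : ∀ t ∈ Icc (0 : ℝ) 11, ∀ᶠ s in 𝓝[Icc (0 : ℝ) 11] t,
      (M (s + 1) - M s - 2) / 6 = (M (t + 1) - M t - 2) / 6 := by
    intro t ht
    have ht0 : t ∈ Icc (0 : ℝ) 12 := ⟨ht.1, by linarith [ht.2]⟩
    have ht1 : t + 1 ∈ Icc (0 : ℝ) 12 := ⟨by linarith [ht.1], by linarith [ht.2]⟩
    have h1 := (tendsto_add_Icc (t := t) (a := 0) (b := 11) (a' := 0) (b' := 12) (c := 1)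
      fun s hs => ⟨by linarith [hs.1], by linarith [hs.2]⟩).eventually (hMloc _ ht1)
    have h2 := nhdsWithin_mono t (Icc_subset_Icc le_rfl (by norm_num : (11 : ℝ) ≤ 12))
      (hMloc t ht0)
    filter_upwards [h1, h2, self_mem_nhdsWithin] with s hs1 hs2 hs
    have e1 := hE s hs
    have e2 := hE t ht
    rw [abs_le] at hs1 hs2
    omega
  have hN := const_of_loc hEloc
  have hD : ∀ t ∈ Icc (0 : ℝ) 6, (M (t + 6) - M t) % 6 = 0 := by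
    intro t ht
    have ht0 : t ∈ Icc (0 : ℝ) 12 := ⟨ht.1, by linarith [ht.2]⟩
    have ht1 : t + 6 ∈ Icc (0 : ℝ) 12 := ⟨by linarith [ht.1], by linarith [ht.2]⟩
    apply eq_mod_of_res
    intro l
    rw [← hM t ht0 l, ← hM _ ht1 l, h.per]
  have hDloc : ∀ t ∈ Icc (0 : ℝ) 6, ∀ᶠ s in 𝓝[Icc (0 : ℝ) 6] t,
      M (s + 6) - M s = M (t + 6) - M t := by
    intro t ht
    have ht0 : t ∈ Icc (0 : ℝ) 12 := ⟨ht.1, by linarith [ht.2]⟩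
    have ht1 : t + 6 ∈ Icc (0 : ℝ) 12 := ⟨by linarith [ht.1], by linarith [ht.2]⟩
    have h1 := (tendsto_add_Icc (t := t) (a := 0) (b := 6) (a' := 0) (b' := 12) (c := 6)
      fun s hs => ⟨by linarith [hs.1], by linarith [hs.2]⟩).eventually (hMloc _ ht1)
    have h2 := nhdsWithin_mono t (Icc_subset_Icc le_rfl (by norm_num : (6 : ℝ) ≤ 12))
      (hMloc t ht0)
    filter_upwards [h1, h2, self_mem_nhdsWithin] with s hs1 hs2 hs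
    have e1 := hD s hs
    have e2 := hD t ht
    rw [abs_le] at hs1 hs2
    omega
  have hW := const_of_loc hDloc
  have z0 : (0 : ℝ) ∈ Icc (0 : ℝ) 12 := ⟨le_rfl, by norm_num⟩
  have z6 : (6 : ℝ) ∈ Icc (0 : ℝ) 12 := ⟨by norm_num, by norm_num⟩
  by_cases hpar : (M 6 - M 0) % 12 = 0
  swap
  · right
    intro i hi
    have hi6 : i ∈ Q 6 := by
      have := h.per 0
      rw [zero_add] at this
      rw [this]; exact hi
    have a0 := hd 0 z0 i hi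
    have a6 := hd 6 z6 i hi6
    have b0 := hMℓ 0 z0 i hi
    have b6 := hMℓ 6 z6 i hi6
    have c0 := hD 0 ⟨le_rfl, by norm_num⟩
    rw [zero_add] at c0
    rw [abs_le] at b0 b6
    obtain ⟨k0, hk0⟩ := a0
    obtain ⟨k6, hk6⟩ := a6
    omega
  left
  have hDt : ∀ t ∈ Icc (0 : ℝ) 6, (M (t + 6) - M t) % 12 = 0 := by
    intro t ht
    rw [hW t ht 0 ⟨le_rfl, by norm_num⟩, zero_add]
    exact hpar
  -- telescoping
  have hE0 := hN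
  set N := (M (0 + 1) - M 0 - 2) / 6 with hNdef
  have hr : ∀ t ∈ Icc (0 : ℝ) 11, M (t + 1) - M t = 6 * N + 2 ∨ M (t + 1) - M t = 6 * N + 3 ∨
      M (t + 1) - M t = 6 * N + 4 := by
    intro t ht
    have e1 := hN t ht 0 ⟨le_rfl, by norm_num⟩
    have e2 := hE t ht
    rw [← hNdef] at e1
    omega
  have tele : ∀ t ∈ Icc (0 : ℝ) 6, (M (t + 1) - M t = 6 * N + 2 ∧ M (t + 6) - M t = 36 * N + 12) ∨
      (M (t + 1) - M t = 6 * N + 4 ∧ M (t + 6) - M t = 36 * N + 24) := by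
    intro t ht
    have r0 := hr t ⟨ht.1, by linarith [ht.2]⟩
    have r1 := hr (t + 1) ⟨by linarith [ht.1], by linarith [ht.2]⟩
    have r2 := hr (t + 2) ⟨by linarith [ht.1], by linarith [ht.2]⟩
    have r3 := hr (t + 3) ⟨by linarith [ht.1], by linarith [ht.2]⟩
    have r4 := hr (t + 4) ⟨by linarith [ht.1], by linarith [ht.2]⟩
    have r5 := hr (t + 5) ⟨by linarith [ht.1], by linarith [ht.2]⟩
    have q1 : t + 1 + 1 = t + 2 := by ring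
    have q2 : t + 2 + 1 = t + 3 := by ring
    have q3 : t + 3 + 1 = t + 4 := by ring
    have q4 : t + 4 + 1 = t + 5 := by ring
    have q5 : t + 5 + 1 = t + 6 := by ring
    rw [q1] at r1
    rw [q2] at r2
    rw [q3] at r3
    rw [q4] at r4
    rw [q5] at r5
    exact tele_int r0 r1 r2 r3 r4 r5 (hDt t ht)
  have m1 : ∀ l : Fin 3, (((l + 1 : Fin 3) : ℕ) : ℤ) % 3 = (((l : ℕ) : ℤ) + 1) % 3 := by decide
  have m2 : ∀ l : Fin 3, (((l + 2 : Fin 3) : ℕ) : ℤ) % 3 = (((l : ℕ) : ℤ) + 2) % 3 := by decide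
  have t0 := tele 0 ⟨le_rfl, by norm_num⟩
  rw [zero_add, zero_add] at t0
  have fin : ∀ t ∈ Icc (0 : ℝ) 6, t ∈ Icc (0 : ℝ) 12 ∧ t + 1 ∈ Icc (0 : ℝ) 12 := fun t ht =>
    ⟨⟨ht.1, by linarith [ht.2]⟩, ⟨by linarith [ht.1], by linarith [ht.2]⟩⟩
  have hW0 : ∀ t ∈ Icc (0 : ℝ) 6, M (t + 6) - M t = M 6 - M 0 := by
    intro t ht
    have := hW t ht 0 ⟨le_rfl, by norm_num⟩
    rwa [zero_add] at this
  rcases t0 with t0 | t0
  · left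
    intro t ht l
    rw [hM t (fin t ht).1 l, hM _ (fin t ht).2 (l + 1)]
    refine res_shift (N := N) (c := 1) ?_ (m1 l)
    have e1 := tele t ht
    have e2 := hW0 t ht
    omega
  · right
    intro t ht l
    rw [hM t (fin t ht).1 l, hM _ (fin t ht).2 (l + 2)]
    refine res_shift (N := N) (c := 2) ?_ (m2 l)
    have e1 := tele t ht
    have e2 := hW0 t ht
    omega


/-- the mod 2 primitive from the integer lift -/
theorem Hex.sec2 {ℓ : ℝ → Fin 3 → ℤ} (hℓ : Sec (Icc (0 : ℝ) 12) Q (fun _ => dz) ℓ)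
    (hd : ∀ t ∈ Icc (0 : ℝ) 12, ∀ i ∈ Q t, (3 : ℤ) ∣ ℓ t i - (i : ℕ)) :
    Sec (Icc (0 : ℝ) 6) Q (fun _ => f2) fun t i => (((ℓ t i + 2) / 3 : ℤ) : ZMod 2) := by
  have hℓ6 := hℓ.mono (Icc_subset_Icc le_rfl (by norm_num : (6 : ℝ) ≤ 12))
  refine ⟨fun t ht i hi j hj => ?_, fun t ht => ?_⟩
  · exact f2_lift (hd t ⟨ht.1, by linarith [ht.2]⟩ i hi) (hℓ6.diff t ht i hi j hj).symm
  · filter_upwards [hℓ6.loc t ht] with s hs i hi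
    rw [hs i hi]

theorem Hex.tor2 (h : Hex Q) : Tor (Icc (0 : ℝ) 6) Q fun _ => f2 :=
  h.tor f2 (by intro i j l hijl; revert i j l; unfold f2; decide) _

/-- frozen patterns -/
theorem Hex.frozen (h : Hex Q) {g : ℝ → Fin 3 → ZMod 2}
    (hg : Sec (Icc (0 : ℝ) 6) Q (fun _ => f2) g) (hper : ∀ i ∈ Q 0, g 6 i = g 0 i) :
    (∀ t ∈ Icc (0 : ℝ) 6, ∀ l, l ∈ Q t ↔ l + 1 ∈ Q (t + 1)) ∨
      ∀ t ∈ Icc (0 : ℝ) 6, ∀ l, l ∈ Q t ↔ l + 2 ∈ Q (t + 1) := by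
  obtain ⟨ℓ, hℓ, hd, hor⟩ := h.dich
  rcases hor with hor | hor
  · exact hor
  exfalso
  obtain ⟨c, hc⟩ := Sec.unique h.tor2 isPreconnected_Icc (Hex.sec2 hℓ hd) hg
  obtain ⟨i, hi⟩ := h.ne 0
  have hi6 : i ∈ Q 6 := by
    have := h.per 0
    rw [zero_add] at this
    rw [this]; exact hi
  have e0 := hc 0 ⟨le_rfl, by norm_num⟩ i hi
  have e6 := hc 6 ⟨by norm_num, le_rfl⟩ i hi6
  rw [hper i hi, ← e0] at e6
  have e7 : ((((ℓ 6 i + 2) / 3 - (ℓ 0 i + 2) / 3 : ℤ)) : ZMod 2) = 0 := by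
    push_cast
    rw [e6, sub_self]
  have e8 : (2 : ℤ) ∣ (ℓ 6 i + 2) / 3 - (ℓ 0 i + 2) / 3 := by
    exact_mod_cast (ZMod.intCast_zmod_eq_zero_iff_dvd _ 2).1 e7
  have e9 := hor i hi
  omega

/-- uniformity: nearby labels differ by the label difference -/
theorem unif {ι G : Type*} [AddCommGroup G] {a b : ℝ} {K : ℝ → Set ι} {f : ι → ι → G}
    {g : ℝ → ι → G} (hT : Tor (Icc a b) K fun _ => f) (hg : Sec (Icc a b) K (fun _ => f) g) :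
    ∃ δ > 0, ∀ s ∈ Icc a b, ∀ t ∈ Icc a b, |s - t| < δ → ∀ i ∈ K s, ∀ j ∈ K t,
      g t j - g s i = f i j := by
  have hloc : ∀ r : Icc a b, ∃ W, IsOpen W ∧ (r : ℝ) ∈ W ∧ ∀ s ∈ W, s ∈ Icc a b →
      K s ⊆ K r ∧ ∀ i ∈ K s, g s i = g r i := by
    intro r
    obtain ⟨W, hW, hr, hWB⟩ := mem_nhdsWithin.1 ((hT.loc r r.2).and (hg.loc r r.2))
    exact ⟨W, hW, hr, fun s hs hsI => ⟨(hWB ⟨hs, hsI⟩).1.1, (hWB ⟨hs, hsI⟩).2⟩⟩
  choose W hWo hrW hW using hloc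
  obtain ⟨δ, hδ, hball⟩ := lebesgue_number_lemma_of_metric (isCompact_Icc (a := a) (b := b))
    (c := W) hWo fun x hx => mem_iUnion.2 ⟨⟨x, hx⟩, hrW ⟨x, hx⟩⟩
  refine ⟨δ, hδ, fun s hs t ht hst i hi j hj => ?_⟩
  obtain ⟨r, hr⟩ := hball s hs
  have h1 := hW r s (hr (Metric.mem_ball_self hδ)) hs
  have h2 := hW r t (hr (by rw [Metric.mem_ball, Real.dist_eq, abs_sub_comm]; exact hst)) ht
  rw [h1.2 i hi, h2.2 j hj]
  exact (hg.diff r r.2 i (h1.1 hi) j (h2.1 hj)).symm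

/-- **Ring form**: not frozen implies that the number of `0|1` steps of a fine ring is odd. -/
theorem Hex.ring_odd (h : Hex Q)
    (hnf : ¬ ((∀ t ∈ Icc (0 : ℝ) 6, ∀ l, l ∈ Q t ↔ l + 1 ∈ Q (t + 1)) ∨
      ∀ t ∈ Icc (0 : ℝ) 6, ∀ l, l ∈ Q t ↔ l + 2 ∈ Q (t + 1))) :
    ∃ δ > 0, ∀ (n : ℕ) (s : ℕ → ℝ) (lab : ℕ → Fin 3), (∀ k ≤ n, s k ∈ Icc (0 : ℝ) 6) → s 0 = 0 →
      s n = 6 → (∀ k < n, |s k - s (k + 1)| < δ) → (∀ k ≤ n, lab k ∈ Q (s k)) → lab n = lab 0 →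
      ∑ k ∈ Finset.range n, f2 (lab k) (lab (k + 1)) = 1 := by
  obtain ⟨ℓ, hℓ, hd, hor⟩ := h.dich
  have hor' := hor.resolve_left hnf
  have hs2 := Hex.sec2 hℓ hd
  obtain ⟨δ, hδ, hu⟩ := unif h.tor2 hs2
  refine ⟨δ, hδ, fun n s lab hs s0 sn hst hlab hn => ?_⟩
  have e1 : ∀ k ∈ Finset.range n, f2 (lab k) (lab (k + 1)) =
      (((ℓ (s (k + 1)) (lab (k + 1)) + 2) / 3 : ℤ) : ZMod 2) -
        (((ℓ (s k) (lab k) + 2) / 3 : ℤ) : ZMod 2) := by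
    intro k hk
    have hk' := Finset.mem_range.1 hk
    exact (hu _ (hs k hk'.le) _ (hs (k + 1) hk') (hst k hk') _ (hlab k hk'.le) _
      (hlab (k + 1) hk')).symm
  rw [Finset.sum_congr rfl e1,
    Finset.sum_range_sub fun k => (((ℓ (s k) (lab k) + 2) / 3 : ℤ) : ZMod 2)]
  rw [s0, sn, hn]
  have e2 := hlab 0 (Nat.zero_le n)
  rw [s0] at e2
  have e3 := hor' _ e2
  have e4 : ((((ℓ 6 (lab 0) + 2) / 3 - (ℓ 0 (lab 0) + 2) / 3 : ℤ)) : ZMod 2) = 1 := by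
    have : (ℓ 6 (lab 0) + 2) / 3 - (ℓ 0 (lab 0) + 2) / 3 =
        2 * (((ℓ 6 (lab 0) + 2) / 3 - (ℓ 0 (lab 0) + 2) / 3) / 2) + 1 := by omega
    rw [this]
    push_cast
    have h2 : (2 : ZMod 2) = 0 := rfl
    rw [h2, zero_mul, zero_add]
  push_cast at e4
  exact e4

end Vale.Agent.P032.H180
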